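import Vale.Agent.P032.H383.Loc
import Vale.Agent.P032.H416.Props

/-!
# P032: the world without split points

`hN` is `NoSplit T` (literally: no point `z` with four colours has its palette in the union of the
palettes of two points with three colours of its unit circle).

* `pf_or` : at a two-pair point one of the two pairs is plain-free;
* `ex_pf_or` : the same in the words of `Ex`;
* `strong_or`, `both_or`, `exists_both` : strong form (no point with three colours has both colours);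
* `split_noComp` : `NoSplit T → NoComp T`.
-/

open Set Filter Topology Metric

noncomputable section

namespace Vale.Agent.P032.H765

open Vale.Agent.P032.Six Vale.Agent.P032.S5.H767 Vale.Agent.P032.H383

variable {U : Fin 6 → Set ℂ} {T : ℂ → Set (Fin 6)} {V : ℂ} {a b m n : Fin 6}

theorem dpt_card (hV : DPt T V a b m n) : (T V).ncard = 4 := by
  rw [hV.pal, Set.ncard_insert_of_notMem (by simp [hV.ab, hV.ac, hV.ad]) (Set.toFinite _),
    Set.ncard_insert_of_notMem (by simp [hV.bc, hV.bd]) (Set.toFinite _), Set.ncard_pair hV.cd]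

/-- **D1**: without split points one pair of a two-pair point is plain-free -/
theorem pf_or (h : Irr U T)
    (hN : ∀ z v q, dist v z = 1 → dist q z = 1 → (T z).ncard = 4 → (T v).ncard = 3 →
      (T q).ncard = 3 → ¬ T z ⊆ T v ∪ T q)
    (hV : DPt T V a b m n) : Pf T V a b ∨ Pf T V m n := by
  by_contra hcon
  rw [not_or] at hcon
  obtain ⟨h1, h2⟩ := hcon
  unfold Pf at h1 h2
  push Not at h1 h2
  obtain ⟨x, hx, hx3, hxc⟩ := h1
  obtain ⟨y, hy, hy3, hyc⟩ := h2
  have e1 : x ∈ EV T V a b := closure_minimal XA_sub (EV_closed h) hxc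
  have e2 : y ∈ EV T V m n := closure_minimal XA_sub (EV_closed h) hyc
  refine hN V x y hx hy (dpt_card hV) hx3 hy3 ?_
  rw [hV.pal]
  rintro i (rfl | rfl | rfl | rfl)
  exacts [Or.inl e1.2.1, Or.inl e1.2.2, Or.inr e2.2.1, Or.inr e2.2.2]

theorem pf_closure (hp : Pf T V a b) {y : ℂ} (hy : y ∈ closure (Ex T V {a, b})) :
    (T y).ncard ≠ 3 := fun h3 => by
  have h1 : Ex T V {a, b} ⊆ XA T V a b := fun x hx => ⟨hx.1, ex_self hx⟩
  exact hp y (dist_of_closure hy) h3 (closure_mono h1 hy)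

/-- the same in the words of `Ex` -/
theorem ex_pf_or (h : Irr U T)
    (hN : ∀ z v q, dist v z = 1 → dist q z = 1 → (T z).ncard = 4 → (T v).ncard = 3 →
      (T q).ncard = 3 → ¬ T z ⊆ T v ∪ T q)
    (hV : DPt T V a b m n) :
    (∀ y ∈ closure (Ex T V {a, b}), (T y).ncard ≠ 3) ∨
      ∀ y ∈ closure (Ex T V {m, n}), (T y).ncard ≠ 3 :=
  (pf_or h hN hV).imp (fun hp _ hy => pf_closure hp hy) fun hp _ hy => pf_closure hp hy

/-- the plain-free pair is the first one, after renaming -/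
theorem exists_pf (h : Irr U T)
    (hN : ∀ z v q, dist v z = 1 → dist q z = 1 → (T z).ncard = 4 → (T v).ncard = 3 →
      (T q).ncard = 3 → ¬ T z ⊆ T v ∪ T q)
    (hV : DPt T V a b m n) : ∃ a' b' m' n', DPt T V a' b' m' n' ∧ Pf T V a' b' ∧
      (a' = a ∧ b' = b ∧ m' = m ∧ n' = n ∨ a' = m ∧ b' = n ∧ m' = a ∧ n' = b) := by
  rcases pf_or h hN hV with h1 | h1
  · exact ⟨a, b, m, n, hV, h1, Or.inl ⟨rfl, rfl, rfl, rfl⟩⟩
  · exact ⟨m, n, a, b, hV.swap, h1, Or.inr ⟨rfl, rfl, rfl, rfl⟩⟩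

/-- **D1, strong form**: no point with three colours of the circle has both colours of the pair -/
theorem strong_or
    (hN : ∀ z v q, dist v z = 1 → dist q z = 1 → (T z).ncard = 4 → (T v).ncard = 3 →
      (T q).ncard = 3 → ¬ T z ⊆ T v ∪ T q)
    (hV : DPt T V a b m n) :
    (∀ x, dist x V = 1 → (T x).ncard = 3 → a ∈ T x → b ∉ T x) ∨
      ∀ x, dist x V = 1 → (T x).ncard = 3 → m ∈ T x → n ∉ T x := by
  by_contra hcon
  rw [not_or] at hcon
  obtain ⟨h1, h2⟩ := hcon
  push Not at h1 h2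
  obtain ⟨x, hx, hx3, xa, xb⟩ := h1
  obtain ⟨y, hy, hy3, ym, yn⟩ := h2
  refine hN V x y hx hy (dpt_card hV) hx3 hy3 ?_
  rw [hV.pal]
  rintro i (rfl | rfl | rfl | rfl)
  exacts [Or.inl xa, Or.inl xb, Or.inr ym, Or.inr yn]

/-- the strong form gives the plain-free form -/
theorem pf_of_strong (h : Irr U T)
    (hs : ∀ x, dist x V = 1 → (T x).ncard = 3 → a ∈ T x → b ∉ T x) : Pf T V a b :=
  fun x hx hx3 hxc => by
    have e1 : x ∈ EV T V a b := closure_minimal XA_sub (EV_closed h) hxc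
    exact hs x hx hx3 e1.2.1 e1.2.2

/-- both forms for one and the same pair -/
theorem both_or (h : Irr U T)
    (hN : ∀ z v q, dist v z = 1 → dist q z = 1 → (T z).ncard = 4 → (T v).ncard = 3 →
      (T q).ncard = 3 → ¬ T z ⊆ T v ∪ T q)
    (hV : DPt T V a b m n) :
    (Pf T V a b ∧ ∀ x, dist x V = 1 → (T x).ncard = 3 → a ∈ T x → b ∉ T x) ∨
      (Pf T V m n ∧ ∀ x, dist x V = 1 → (T x).ncard = 3 → m ∈ T x → n ∉ T x) :=
  (strong_or hN hV).imp (fun hs => ⟨pf_of_strong h hs, hs⟩) fun hs => ⟨pf_of_strong h hs, hs⟩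

/-- both forms, the pair is the first one after renaming -/
theorem exists_both (h : Irr U T)
    (hN : ∀ z v q, dist v z = 1 → dist q z = 1 → (T z).ncard = 4 → (T v).ncard = 3 →
      (T q).ncard = 3 → ¬ T z ⊆ T v ∪ T q)
    (hV : DPt T V a b m n) : ∃ a' b' m' n', DPt T V a' b' m' n' ∧ Pf T V a' b' ∧
      (∀ x, dist x V = 1 → (T x).ncard = 3 → a' ∈ T x → b' ∉ T x) ∧
      (a' = a ∧ b' = b ∧ m' = m ∧ n' = n ∨ a' = m ∧ b' = n ∧ m' = a ∧ n' = b) := by
  rcases both_or h hN hV with ⟨h1, h2⟩ | ⟨h1, h2⟩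
  · exact ⟨a, b, m, n, hV, h1, h2, Or.inl ⟨rfl, rfl, rfl, rfl⟩⟩
  · exact ⟨m, n, a, b, hV.swap, h1, h2, Or.inr ⟨rfl, rfl, rfl, rfl⟩⟩

/-- without split points there are no complementary plain ends -/
theorem split_noComp
    (hN : ∀ z v q, dist v z = 1 → dist q z = 1 → (T z).ncard = 4 → (T v).ncard = 3 →
      (T q).ncard = 3 → ¬ T z ⊆ T v ∪ T q) : NoComp T := by
  intro z h4 v q hv hq hv3 hq3
  have h1 : (T q).ncard = 3 := by
    have h2 := Set.ncard_add_ncard_compl (T v)
    rw [← hq3] at h2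
    simp only [Nat.card_eq_fintype_card, Fintype.card_fin] at h2
    omega
  refine absurd ?_ (hN z v q hv hq h4 hv3 h1)
  rw [hq3, union_compl_self]
  exact subset_univ _

end Vale.Agent.P032.H765
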